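import Vale.Agent.P150.Main

/-!
# P150, hand-in: the relaxation time of SK heat-bath dynamics is at least `n ⟨R_{12}^2⟩`

Deterministic statement, valid for every realisation `g` of the disorder, every `β` and `n ≥ 1`.
-/

namespace Vale.Agent.Results.P150.OverlapBound

open Vale.Agent.P150

theorem result (n : ℕ) (hn : 1 ≤ n) (β : ℝ) (g : Fin n → Fin n → ℝ) :
    0 < overlap2 β g ∧ 0 ≤ gap β g ∧
    (∀ f : (Fin n → Bool) → ℝ, gap β g * Vr β g f ≤ dir β g f) ∧
    gap β g ≤ 1 / (n * overlap2 β g) :=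
  ⟨overlap2_pos β g hn, gap_nonneg β g hn, poincare β g hn, gap_le β g hn⟩

end Vale.Agent.Results.P150.OverlapBound
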